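import Vale.Agent.P290.R2.H596.Spec2

/-! The Jacobian determinant may be computed in any trivialisation. -/

open Set Filter Metric
open scoped Topology

namespace Vale.Agent.P290.R2.H514

open Vale.Agent.P290 Vale.Agent.P290.K Vale.Agent.P290.H580 Vale.Agent.P290.H805
open Vale.Agent.P290.R2.H596

theorem stJac : StJac := by
  intro T E _ _ F vol hvol t g z x h hx
  have hd : DifferentiableAt ℂ (fun y => (F.triv (g z) (g y)).2) z := h.2.2
  have h1 := h.1
  have h2 := h.2.1
  have hz : g z ∈ (F.triv (g z)).source := F.mem (g z)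
  have hzt : F.p (g z) = t := h1.self_of_nhds
  have e1 : F.triv (g z) (g z) = (t, (F.triv (g z) (g z)).2) := by
    rw [← hzt]; exact F.mk_eq _ hz
  have e2 : (t, (F.triv (g z) (g z)).2) ∈ (F.triv (g z)).target := by
    rw [← e1]; exact (F.triv (g z)).map_source hz
  have e3 : (F.triv (g z)).symm (t, (F.triv (g z) (g z)).2) = g z := by
    rw [← e1, (F.triv (g z)).left_inv hz]
  obtain ⟨-, -, -, h3⟩ := hvol (g z) t _ e2
  have h4 := h3 x (by rw [e3]; exact hx)
  have h5 : DifferentiableAt ℂ (fun w => (F.triv x ((F.triv (g z)).symm (t, w))).2)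
      (F.triv (g z) (g z)).2 :=
    (F.hol (g z) x t (F.triv (g z) (g z)).2 e2 (by rw [e3]; exact hx)).differentiableAt (by simp)
  have h7 : ∀ᶠ y in 𝓝 z, g y ∈ (F.triv (g z)).source :=
    h2.eventually ((F.triv (g z)).open_source.mem_nhds hz)
  have h8 : (fun y => (F.triv x (g y)).2) =ᶠ[𝓝 z]
      (fun w => (F.triv x ((F.triv (g z)).symm (t, w))).2) ∘
        (fun y => (F.triv (g z) (g y)).2) := by
    filter_upwards [h1, h7] with y hy1 hy2
    have e4 : F.triv (g z) (g y) = (t, (F.triv (g z) (g y)).2) := by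
      rw [← hy1]; exact F.mk_eq _ hy2
    simp only [Function.comp]
    rw [← e4, (F.triv (g z)).left_inv hy2]
  have h9 : fderiv ℂ (fun y => (F.triv x (g y)).2) z =
      (fderiv ℂ (fun w => (F.triv x ((F.triv (g z)).symm (t, w))).2) (F.triv (g z) (g z)).2).comp
        (fderiv ℂ (fun y => (F.triv (g z) (g y)).2) z) := by
    rw [h8.fderiv_eq]
    exact fderiv_comp z h5 hd
  have hdet : ∀ A B : C2 →L[ℂ] C2, (A.comp B).det = A.det * B.det := fun A B =>
    LinearMap.det_comp (A : C2 →ₗ[ℂ] C2) (B : C2 →ₗ[ℂ] C2)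
  rw [jac, h4, e3, h9, hdet, mul_assoc]

end Vale.Agent.P290.R2.H514
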