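import Vale.Agent.P290.R2.H596.Spec3
import Vale.Agent.P290.R2.H514.Jac

/-! The Jacobian determinant depends continuously on the map and on the parameter. -/

open Set Filter Metric
open scoped Topology

namespace Vale.Agent.P290.R2.H514

open Vale.Agent.P290 Vale.Agent.P290.K Vale.Agent.P290.H580 Vale.Agent.P290.H805
open Vale.Agent.P290.R2.H596

section
variable {T E : Type} [TopologicalSpace T] [TopologicalSpace E] {F : Family T E}

theorem jac_local {vol : E → T × C2 → ℂ} (hvol : RelForm F vol) {t₀ : T} {g₀ : C2 → E} {z₀ : C2}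
    {S : Set C2} (hS : S ∈ 𝓝 z₀) (hg : ∀ y ∈ S, FH F t₀ g₀ y) {ε : ℝ} (hε : 0 < ε) :
    ∃ r > (0 : ℝ), ∃ η > (0 : ℝ), closedBall z₀ r ⊆ S ∧
      (∀ y ∈ closedBall z₀ r, g₀ y ∈ (F.triv (g₀ z₀)).source) ∧
      ∀ᶠ t in 𝓝 t₀, ∀ u : C2 → E, (∀ y ∈ closedBall z₀ r, FH F t u y) →
        (∀ y ∈ closedBall z₀ r, u y ∈ (F.triv (g₀ z₀)).source ∧
          ‖(F.triv (g₀ z₀) (u y)).2 - (F.triv (g₀ z₀) (g₀ y)).2‖ < η) →
        ∀ y ∈ ball z₀ (r / 2), ‖jac F vol t u y - jac F vol t₀ g₀ y‖ < ε := by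
  set x := g₀ z₀ with hx
  have hz : FH F t₀ g₀ z₀ := hg z₀ (mem_of_mem_nhds hS)
  have hsrc : ∀ᶠ y in 𝓝 z₀, g₀ y ∈ (F.triv x).source := hz.eventually_source (F.mem x)
  obtain ⟨U, hU1, hUo, hzU⟩ := _root_.eventually_nhds_iff.1 (hsrc.and hS)
  set A : C2 → C2 := fun y => (F.triv x (g₀ y)).2 with hA
  have hAd : DifferentiableOn ℂ A U := fun y hy =>
    ((hg y (hU1 y hy).2).diff (hU1 y hy).1).differentiableWithinAt
  have hAc : ContinuousAt A z₀ := (hAd.differentiableAt (hUo.mem_nhds hzU)).continuousAt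
  have hA'c : ContinuousAt (fderiv ℂ A) z₀ :=
    ((differentiableOn_fderiv hUo hAd).differentiableAt (hUo.mem_nhds hzU)).continuousAt
  have hxt : F.p x = t₀ := hz.1.self_of_nhds
  have e1 : F.triv x x = (t₀, A z₀) := by rw [← hxt]; exact F.mk_eq _ (F.mem x)
  have e2 : (t₀, A z₀) ∈ (F.triv x).target := by
    rw [← e1]; exact (F.triv x).map_source (F.mem x)
  obtain ⟨hvc, -⟩ := hvol x t₀ _ e2
  have hΦ : ContinuousAt (fun q : T × (C2 × (C2 →L[ℂ] C2)) => vol x (q.1, q.2.1) * q.2.2.det)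
      (t₀, (A z₀, fderiv ℂ A z₀)) := by
    refine ContinuousAt.mul ?_ ?_
    · exact ContinuousAt.comp (g := vol x) (f := fun q : T × (C2 × (C2 →L[ℂ] C2)) =>
        (q.1, q.2.1)) hvc (by fun_prop)
    · exact (ContinuousLinearMap.continuous_det.comp (by fun_prop)).continuousAt
  have h1 := hΦ.eventually (Metric.ball_mem_nhds _ (half_pos hε))
  obtain ⟨N, hN, W, hW, hNW⟩ := mem_nhds_prod_iff.1 h1
  obtain ⟨δ, hδ, hδW⟩ := Metric.mem_nhds_iff.1 hW
  have key : ∀ t ∈ N, ∀ (w : C2) (L : C2 →L[ℂ] C2), dist w (A z₀) < δ →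
      dist L (fderiv ℂ A z₀) < δ →
      dist (vol x (t, w) * L.det) (vol x (t₀, A z₀) * (fderiv ℂ A z₀).det) < ε / 2 := by
    intro t ht w L hw hL
    have : ((w, L) : C2 × (C2 →L[ℂ] C2)) ∈ W := hδW (by
      rw [Metric.mem_ball, Prod.dist_eq]; exact max_lt hw hL)
    exact hNW (mk_mem_prod ht this)
  have h2 : ∀ᶠ y in 𝓝 z₀, y ∈ U ∧ dist (A y) (A z₀) < δ / 2 ∧
      dist (fderiv ℂ A y) (fderiv ℂ A z₀) < δ / 2 :=
    (hUo.eventually_mem hzU).and ((hAc.eventually (Metric.ball_mem_nhds _ (half_pos hδ))).and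
      (hA'c.eventually (Metric.ball_mem_nhds _ (half_pos hδ))))
  obtain ⟨r₁, hr₁, hr₁s⟩ := Metric.eventually_nhds_iff_ball.1 h2
  have hr : 0 < r₁ / 2 := by positivity
  have hcb : closedBall z₀ (r₁ / 2) ⊆ ball z₀ r₁ := closedBall_subset_ball (by linarith)
  refine ⟨r₁ / 2, hr, min (δ / 2) (δ / 2 * (r₁ / 4)), by positivity, fun y hy =>
    (hU1 y (hr₁s y (hcb hy)).1).2, fun y hy => (hU1 y (hr₁s y (hcb hy)).1).1, ?_⟩
  filter_upwards [hN] with t ht u hu hclose y hy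
  have hyb : ball y (r₁ / 4) ⊆ closedBall z₀ (r₁ / 2) := by
    intro q hq
    rw [mem_closedBall]
    have h3 := dist_triangle q y z₀
    rw [mem_ball] at hq hy
    linarith
  have hyc : y ∈ closedBall z₀ (r₁ / 2) := hyb (mem_ball_self (by positivity))
  set B : C2 → C2 := fun y => (F.triv x (u y)).2 with hB
  have hBd : ∀ q ∈ closedBall z₀ (r₁ / 2), DifferentiableAt ℂ B q := fun q hq =>
    (hu q hq).diff (hclose q hq).1
  have hAd' : ∀ q ∈ closedBall z₀ (r₁ / 2), DifferentiableAt ℂ A q := fun q hq =>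
    hAd.differentiableAt (hUo.mem_nhds (hr₁s q (hcb hq)).1)
  have hder : ‖fderiv ℂ B y - fderiv ℂ A y‖ ≤ δ / 2 := by
    have h4 : fderiv ℂ (fun q => B q - A q) y = fderiv ℂ B y - fderiv ℂ A y :=
      fderiv_fun_sub (hBd y hyc) (hAd' y hyc)
    rw [← h4]
    refine (norm_fderiv_le_of_bound (δ := δ / 2 * (r₁ / 4)) (show 0 < r₁ / 4 by positivity)
      (fun q hq => ((hBd q (hyb hq)).sub (hAd' q (hyb hq))).differentiableWithinAt)
      fun q hq => ?_).trans ?_
    · exact ((hclose q (hyb hq)).2.le).trans (min_le_right _ _)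
    · rw [mul_div_assoc, div_self (by positivity), mul_one]
  have hval : ‖B y - A y‖ < δ / 2 := (hclose y hyc).2.trans_le (min_le_left _ _)
  have h5 := hr₁s y (hcb hyc)
  have h6 : dist (B y) (A z₀) < δ := by
    have := dist_triangle (B y) (A y) (A z₀)
    rw [← dist_eq_norm] at hval
    linarith [h5.2.1]
  have h7 : dist (fderiv ℂ B y) (fderiv ℂ A z₀) < δ := by
    have := dist_triangle (fderiv ℂ B y) (fderiv ℂ A y) (fderiv ℂ A z₀)
    rw [← dist_eq_norm] at hder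
    linarith [h5.2.2]
  have h8 := key t ht (B y) (fderiv ℂ B y) h6 h7
  have h9 := key t₀ (mem_of_mem_nhds hN) (A y) (fderiv ℂ A y) (by linarith [h5.2.1])
    (by linarith [h5.2.2])
  rw [stJac T E F vol hvol t u y x (hu y hyc) (hclose y hyc).1,
    stJac T E F vol hvol t₀ g₀ y x (hg y (hU1 y h5.1).2) (hU1 y h5.1).1, ← dist_eq_norm]
  have h10 := dist_triangle_right (vol x (t, B y) * (fderiv ℂ B y).det)
    (vol x (t₀, A y) * (fderiv ℂ A y).det) (vol x (t₀, A z₀) * (fderiv ℂ A z₀).det)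
  change dist (vol x (t, B y) * (fderiv ℂ B y).det)
    (vol x (t₀, A y) * (fderiv ℂ A y).det) < ε
  linarith

end

theorem jacClose : StJacClose := by
  intro T E _ _ F vol hvol t₀ g₀ R₀ R₁ hR hg ε hε
  classical
  have hloc := fun (z₀ : C2) (hz₀ : z₀ ∈ closedBall (0 : C2) R₀) =>
    jac_local hvol (S := closedBall 0 R₁)
      (closedBall_mem_nhds_of_mem (closedBall_subset_ball hR hz₀)) hg hε
  choose! r hr η hη hrS hsrc hev using hloc
  obtain ⟨s, hs, hcov⟩ := (isCompact_closedBall (0 : C2) R₀).elim_nhds_subcover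
    (fun z => ball z (r z / 2)) fun z hz => ball_mem_nhds _ (half_pos (hr z hz))
  refine ⟨{q | ∀ i ∈ s, q.1 ∈ closedBall i (r i) → q.2 ∈ (F.triv (g₀ i)).source ∧
    ‖(F.triv (g₀ i) q.2).2 - (F.triv (g₀ i) (g₀ q.1)).2‖ < η i}, ?_, ?_⟩
  · intro z hz
    refine (Filter.eventually_all_finset s).2 fun i hi => ?_
    by_cases hzi : z ∈ closedBall i (r i)
    · have hsz : g₀ z ∈ (F.triv (g₀ i)).source := hsrc i (hs i hi) z hzi
      have c0 : ContinuousAt (fun y => (F.triv (g₀ i) y).2) (g₀ z) :=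
        continuousAt_snd.comp ((F.triv (g₀ i)).continuousAt hsz)
      have c1 : ContinuousAt (fun q : C2 × E => (F.triv (g₀ i) q.2).2) (z, g₀ z) :=
        ContinuousAt.comp (g := fun y => (F.triv (g₀ i) y).2) (f := Prod.snd) c0
          continuousAt_snd
      have c2 : ContinuousAt (fun q : C2 × E => (F.triv (g₀ i) (g₀ q.1)).2) (z, g₀ z) :=
        ContinuousAt.comp (g := fun z => (F.triv (g₀ i) (g₀ z)).2) (f := Prod.fst)
          (ContinuousAt.comp (g := fun y => (F.triv (g₀ i) y).2) (f := g₀) c0 (hg z hz).2.1)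
          continuousAt_fst
      have c4 : ∀ᶠ q in 𝓝 (z, g₀ z),
          ‖(F.triv (g₀ i) q.2).2 - (F.triv (g₀ i) (g₀ q.1)).2‖ < η i :=
        (c1.sub c2).norm.eventually_lt_const (by
          simpa only [Pi.sub_apply, sub_self, norm_zero] using hη i (hs i hi))
      have c5 : ∀ᶠ q in 𝓝 (z, g₀ z), q.2 ∈ (F.triv (g₀ i)).source :=
        continuousAt_snd.eventually ((F.triv (g₀ i)).open_source.mem_nhds hsz)
      filter_upwards [c4, c5] with q a4 a5 _ using ⟨a5, a4⟩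
    · have c6 : ∀ᶠ q in 𝓝 (z, g₀ z), q.1 ∉ closedBall i (r i) :=
        (continuousAt_fst (p := (z, g₀ z))).eventually
          ((isClosed_closedBall (x := i) (ε := r i)).isOpen_compl.mem_nhds
            (show z ∈ (closedBall i (r i))ᶜ from hzi))
      filter_upwards [c6] with q hq hq' using absurd hq' hq
  · have h4 := (Filter.eventually_all_finset s).2 fun i hi => hev i (hs i hi)
    filter_upwards [h4] with t ht u hu hO y hy
    obtain ⟨i, hi, hyi⟩ := mem_iUnion₂.1 (hcov hy)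
    exact ht i hi u (fun q hq => hu q (hrS i (hs i hi) hq))
      (fun q hq => hO q (hrS i (hs i hi) hq) i hi hq) y hyi

end Vale.Agent.P290.R2.H514
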