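import Vale.Agent.P290.R2.H596.Spec2
import Mathlib.MeasureTheory.Function.Jacobian
import Mathlib.RingTheory.Norm.Transitivity
import Mathlib.RingTheory.Complex
import Mathlib.MeasureTheory.Measure.Lebesgue.Complex
import Mathlib.MeasureTheory.Group.Prod

/-! Comparison of volumes: a surjective holomorphic map from a fibre to a K3 surface has a ratio
of the two-forms which is bounded below. -/

open Set Filter Metric MeasureTheory
open scoped Topology Manifold ContDiff ENNReal

namespace Vale.Agent.P290.R2.H514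

open Vale.Agent.P290 Vale.Agent.P290.K Vale.Agent.P290.H580 Vale.Agent.P290.H805
open Vale.Agent.P290.R2.H596

theorem det_comp' (A B : C2 →L[ℂ] C2) : (A.comp B).det = A.det * B.det :=
  LinearMap.det_comp (A : C2 →ₗ[ℂ] C2) (B : C2 →ₗ[ℂ] C2)

theorem det_real (A : C2 →L[ℂ] C2) : (A.restrictScalars ℝ).det = ‖A.det‖ ^ 2 := by
  have h : (LinearMap.det ((A : C2 →ₗ[ℂ] C2).restrictScalars ℝ)) = Algebra.norm ℝ A.det :=
    LinearMap.det_restrictScalars
  rw [← Complex.normSq_eq_norm_sq, ← Algebra.norm_complex_apply, ← h]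
  rfl

theorem haarC2 : (volume : Measure C2).IsAddHaarMeasure :=
  inferInstanceAs ((volume : Measure ℂ).prod (volume : Measure ℂ)).IsAddHaarMeasure

/-- a map of planes with bounded complex determinant does not increase the volume too much -/
theorem volume_image_le {f : C2 → C2} {f' : C2 → C2 →L[ℂ] C2} {S : Set C2}
    (hS : MeasurableSet S) (hf : ∀ w ∈ S, HasFDerivAt f (f' w) w) {M : ℝ}
    (hM : ∀ w ∈ S, ‖(f' w).det‖ ≤ M) :
    volume (f '' S) ≤ ENNReal.ofReal (M ^ 2) * volume S := by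
  have := haarC2
  refine (addHaar_image_le_lintegral_abs_det_fderiv volume hS
    (f' := fun w => (f' w).restrictScalars ℝ) fun w hw =>
      ((hf w hw).restrictScalars ℝ).hasFDerivWithinAt).trans ?_
  rw [← setLIntegral_const]
  refine setLIntegral_mono measurable_const fun w hw => ENNReal.ofReal_le_ofReal ?_
  rw [det_real, abs_of_nonneg (by positivity)]
  exact pow_le_pow_left₀ (norm_nonneg _) (hM w hw) 2

theorem diff_change {Y : Type} [TopologicalSpace Y] [ChartedSpace C2 Y]
    [IsManifold 𝓘(ℂ, C2) ω Y] {e e' : OpenPartialHomeomorph Y C2} (he : e ∈ atlas C2 Y)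
    (he' : e' ∈ atlas C2 Y) {q : C2} (hq : q ∈ e.target) (hq' : e.symm q ∈ e'.source) :
    DifferentiableAt ℂ (fun z => e' (e.symm z)) q := by
  have h := (contDiffGroupoid ω 𝓘(ℂ, C2)).compatible he he'
  rw [contDiffGroupoid, mem_groupoid_of_pregroupoid, contDiffPregroupoid] at h
  have h1 := h.1
  simp only [modelWithCornersSelf_coe, modelWithCornersSelf_coe_symm,
    Function.comp_id, Function.id_comp, preimage_id, range_id, inter_univ] at h1
  have h2 : (e.symm.trans e').source ∈ 𝓝 q :=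
    (e.symm.trans e').open_source.mem_nhds ⟨hq, hq'⟩
  exact (h1.contDiffAt h2).differentiableAt (by simp)

section
variable {T E : Type} [TopologicalSpace T] [TopologicalSpace E] (F : Family T E) (t : T)

open Classical in
/-- the point of the fibre over `t` with coordinate `w` in the trivialisation at `x` -/
noncomputable def pt (x : E) (y0 : Fib F t) (w : C2) : Fib F t :=
  if h : (t, w) ∈ (F.triv x).target then ⟨(F.triv x).symm (t, w), F.p_symm x h⟩ else y0

variable {F t}

theorem pt_val {x : E} {y0 : Fib F t} {w : C2} (h : (t, w) ∈ (F.triv x).target) :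
    (pt F t x y0 w).1 = (F.triv x).symm (t, w) := by
  rw [pt, dif_pos h]

theorem continuousAt_pt {x : E} {y0 : Fib F t} {w : C2} (h : (t, w) ∈ (F.triv x).target) :
    ContinuousAt (pt F t x y0) w := by
  rw [isInducing_val.continuousAt_iff]
  have h1 : ∀ᶠ w' in 𝓝 w, (t, w') ∈ (F.triv x).target :=
    (Continuous.prodMk_right t).continuousAt.eventually ((F.triv x).open_target.mem_nhds h)
  have h2 : ContinuousAt (fun w' => (F.triv x).symm (t, w')) w :=
    ContinuousAt.comp (g := (F.triv x).symm) (f := fun w' => ((t, w') : T × C2))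
      ((F.triv x).continuousAt_symm h) (Continuous.prodMk_right t).continuousAt
  refine h2.congr ?_
  filter_upwards [h1] with w' hw'
  exact (pt_val hw').symm

/-- the derivative of a holomorphic map between a fibre and a K3 surface in charts -/
theorem deriv_pt {vol : E → T × C2 → ℂ} (hvol : RelForm F vol) (X : All.K3) {b : Fib F t → X.X}
    (hb : ∀ y, All.Hol b y) {lam : ℂ} (hlam : ∀ y, Ratio F vol t X b y lam)
    {e : OpenPartialHomeomorph X.X C2} (he : e ∈ atlas C2 X.X) {x : E} {y0 : Fib F t} {w : C2}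
    (h : (t, w) ∈ (F.triv x).target) (hs : b (pt F t x y0 w) ∈ e.source) :
    DifferentiableAt ℂ (fun w' => e (b (pt F t x y0 w'))) w ∧
      X.vol e (e (b (pt F t x y0 w))) *
        (fderiv ℂ (fun w' => e (b (pt F t x y0 w'))) w).det = lam * vol x (t, w) := by
  have := X.manifold
  set y := pt F t x y0 w with hy
  have hyv : y.1 = (F.triv x).symm (t, w) := pt_val h
  -- the chart of `X` at `b y`
  set k := chartAt C2 (b y) with hk
  have hk1 : b y ∈ k.source := mem_chart_source C2 (b y)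
  have hk2 : k (b y) ∈ k.target := k.map_source hk1
  have hk3 : k.symm (k (b y)) = b y := k.left_inv hk1
  -- first factor
  obtain ⟨-, h1⟩ := X.holo k (chart_mem_atlas C2 (b y))
  obtain ⟨-, h1⟩ := h1 _ hk2
  have h1 := h1 e he (by rw [hk3]; exact hs)
  rw [hk3] at h1
  have d1 : DifferentiableAt ℂ (fun z => e (k.symm z)) (k (b y)) := by
    exact diff_change (chart_mem_atlas C2 (b y)) he hk2 (by rw [hk3]; exact hs)
  -- second factor
  obtain ⟨hbc, d2⟩ := hb y
  have h2 := hlam y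
  rw [Ratio] at h2
  -- third factor
  obtain ⟨-, -, -, h3⟩ := hvol x t w h
  have hys : (F.triv x).symm (t, w) ∈ (F.triv y.1).source := by rw [← hyv]; exact F.mem y.1
  have h3 := h3 y.1 hys
  have d3 : DifferentiableAt ℂ (fun u => (F.triv y.1 ((F.triv x).symm (t, u))).2) w :=
    (F.hol x y.1 t w h hys).differentiableAt (by simp)
  have q3 : (F.triv y.1 ((F.triv x).symm (t, w))).2 = chartAt C2 y y := by rw [← hyv]; rfl
  have q4 : (chartAt C2 y).symm (chartAt C2 y y) = y :=
    (chartAt C2 y).left_inv (mem_chart_source C2 y)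
  have hev : (fun w' => e (b (pt F t x y0 w'))) =ᶠ[𝓝 w]
      (fun z => e (k.symm z)) ∘ ((fun z => k (b ((chartAt C2 y).symm z))) ∘
        (fun u => (F.triv y.1 ((F.triv x).symm (t, u))).2)) := by
    have h5 : ∀ᶠ w' in 𝓝 w, (t, w') ∈ (F.triv x).target :=
      (Continuous.prodMk_right t).continuousAt.eventually ((F.triv x).open_target.mem_nhds h)
    have hpc : ContinuousAt (pt F t x y0) w := continuousAt_pt h
    have h6 : ∀ᶠ w' in 𝓝 w, pt F t x y0 w' ∈ (chartAt C2 y).source :=
      hpc.eventually ((chartAt C2 y).open_source.mem_nhds (mem_chart_source C2 y))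
    have h7 : ∀ᶠ w' in 𝓝 w, b (pt F t x y0 w') ∈ k.source :=
      (ContinuousAt.comp (g := b) (f := pt F t x y0) hbc hpc).eventually
        (k.open_source.mem_nhds hk1)
    filter_upwards [h5, h6, h7] with w' a5 a6 a7
    have a8 : (F.triv y.1 ((F.triv x).symm (t, w'))).2 = chartAt C2 y (pt F t x y0 w') := by
      rw [← pt_val (y0 := y0) a5]; rfl
    simp only [Function.comp]
    rw [a8, (chartAt C2 y).left_inv a6, k.left_inv a7]
  have D3 := d3.hasFDerivAt
  have D2 : HasFDerivAt (fun z => k (b ((chartAt C2 y).symm z)))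
      (fderiv ℂ (fun z => k (b ((chartAt C2 y).symm z))) (chartAt C2 y y))
      ((fun u => (F.triv y.1 ((F.triv x).symm (t, u))).2) w) := by
    beta_reduce
    rw [q3]; exact d2.hasFDerivAt
  have D1 : HasFDerivAt (fun z => e (k.symm z)) (fderiv ℂ (fun z => e (k.symm z)) (k (b y)))
      (((fun z => k (b ((chartAt C2 y).symm z))) ∘
        (fun u => (F.triv y.1 ((F.triv x).symm (t, u))).2)) w) := by
    simp only [Function.comp]
    rw [q3, q4]; exact d1.hasFDerivAt
  have D := (D1.comp w (D2.comp w D3)).congr_of_eventuallyEq hev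
  refine ⟨D.differentiableAt, ?_⟩
  rw [D.fderiv, det_comp', det_comp']
  rw [← hyv] at h3
  have h2' : X.vol k (k (b y)) *
      (fderiv ℂ (fun z => k (b ((chartAt C2 y).symm z))) (chartAt C2 y y)).det =
      lam * vol y.1 (t, (F.triv y.1 y.1).2) := h2
  rw [h1] at h2'
  rw [h3]
  linear_combination (fderiv ℂ (fun u => (F.triv y.1 ((F.triv x).symm (t, u))).2) w).det * h2'

/-- the part of the ball where the map is defined and takes values in the ball of the chart `e` -/
def SS (X : All.K3) (b : Fib F t → X.X) (e : OpenPartialHomeomorph X.X C2) (q : C2) (ρ : ℝ)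
    (x : E) (y0 : Fib F t) (r : ℝ) : Set C2 :=
  {w | w ∈ ball (F.triv x x).2 r ∧ b (pt F t x y0 w) ∈ e.source ∧
    e (b (pt F t x y0 w)) ∈ ball q ρ}

theorem isOpen_SS {X : All.K3} {b : Fib F t → X.X} (hb : ∀ y, All.Hol b y)
    {e : OpenPartialHomeomorph X.X C2} {q : C2} {ρ : ℝ} {x : E} {y0 : Fib F t} {r : ℝ}
    (h : ∀ w ∈ ball (F.triv x x).2 r, (t, w) ∈ (F.triv x).target) :
    IsOpen (SS X b e q ρ x y0 r) := by
  rw [isOpen_iff_mem_nhds]
  rintro w ⟨h1, h2, h3⟩
  have hpc : ContinuousAt (pt F t x y0) w := continuousAt_pt (h w h1)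
  have hc : ContinuousAt (fun w => b (pt F t x y0 w)) w :=
    ContinuousAt.comp (g := b) (f := pt F t x y0) (hb _).1 hpc
  have hec : ContinuousAt (fun w => e (b (pt F t x y0 w))) w :=
    ContinuousAt.comp (g := e) (f := fun w => b (pt F t x y0 w)) (e.continuousAt h2) hc
  filter_upwards [isOpen_ball.mem_nhds h1, hc.eventually (e.open_source.mem_nhds h2),
    hec.eventually (isOpen_ball.mem_nhds h3)] with w' a1 a2 a3 using ⟨a1, a2, a3⟩

end

theorem lower : StLower := by
  intro T E _ _ F hF vol hvol t₀ X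
  classical
  have hsc := X.sc
  have hne : Nonempty X.X := inferInstance
  obtain ⟨p₀⟩ := hne
  set e := chartAt C2 p₀ with he
  have hea : e ∈ atlas C2 X.X := chart_mem_atlas C2 p₀
  have hp : e p₀ ∈ e.target := e.map_source (mem_chart_source C2 p₀)
  obtain ⟨hdiff, hne0⟩ := X.holo e hea
  have hv0 : X.vol e (e p₀) ≠ 0 := (hne0 _ hp).1
  set m := ‖X.vol e (e p₀)‖ / 2 with hmdef
  have hm : 0 < m := by positivity
  have hcv : ContinuousAt (fun w => ‖X.vol e w‖) (e p₀) :=
    ((hdiff _ hp).differentiableAt (e.open_target.mem_nhds hp)).continuousAt.norm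
  have h1 : ∀ᶠ w in 𝓝 (e p₀), w ∈ e.target ∧ m < ‖X.vol e w‖ := by
    refine (e.open_target.eventually_mem hp).and (hcv.eventually_const_lt ?_)
    have : 0 < ‖X.vol e (e p₀)‖ := by positivity
    rw [hmdef]; linarith
  obtain ⟨ρ, hρ, hρs⟩ := Metric.eventually_nhds_iff_ball.1 h1
  -- boxes in the family
  have h2 : ∀ x ∈ F.p ⁻¹' {t₀}, ∃ (O : Set T) (r M : ℝ), IsOpen O ∧ t₀ ∈ O ∧ 0 < r ∧ 0 ≤ M ∧
      ∀ t ∈ O, ∀ w ∈ ball (F.triv x x).2 r, (t, w) ∈ (F.triv x).target ∧
        ‖vol x (t, w)‖ ≤ M := by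
    intro x hx
    have hx' : F.p x = t₀ := hx
    have e1 : F.triv x x = (t₀, (F.triv x x).2) := by rw [← hx']; exact F.mk_eq _ (F.mem x)
    have e2 : (t₀, (F.triv x x).2) ∈ (F.triv x).target := by
      rw [← e1]; exact (F.triv x).map_source (F.mem x)
    obtain ⟨hc, -⟩ := hvol x t₀ _ e2
    have h3 : ∀ᶠ q in 𝓝 (t₀, (F.triv x x).2), q ∈ (F.triv x).target ∧
        ‖vol x q‖ < ‖vol x (t₀, (F.triv x x).2)‖ + 1 :=
      ((F.triv x).open_target.eventually_mem e2).and
        (hc.norm.eventually_lt_const (by linarith))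
    obtain ⟨O', hO', W, hW, hOW⟩ := mem_nhds_prod_iff.1 h3
    obtain ⟨O, hO1, hO2, hO3⟩ := mem_nhds_iff.1 hO'
    obtain ⟨r, hr, hrW⟩ := Metric.mem_nhds_iff.1 hW
    refine ⟨O, r, ‖vol x (t₀, (F.triv x x).2)‖ + 1, hO2, hO3, hr, by positivity, ?_⟩
    intro t ht w hw
    have h4 := hOW (mk_mem_prod (hO1 ht) (hrW hw))
    exact ⟨h4.1, h4.2.le⟩
  choose! O r M hO ht0 hr hM hbox using h2
  let U : E → Set E := fun x =>
    (F.triv x).source ∩ (F.triv x) ⁻¹' (O x ×ˢ ball (F.triv x x).2 (r x))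
  have hUo : ∀ x ∈ F.p ⁻¹' {t₀}, IsOpen (U x) := fun x hx =>
    (F.triv x).isOpen_inter_preimage ((hO x hx).prod isOpen_ball)
  have hUx : ∀ x ∈ F.p ⁻¹' {t₀}, x ∈ U x := by
    intro x hx
    have hx' : F.p x = t₀ := hx
    refine ⟨F.mem x, ?_⟩
    have e1 : F.triv x x = (t₀, (F.triv x x).2) := by rw [← hx']; exact F.mk_eq _ (F.mem x)
    rw [mem_preimage, e1]
    exact ⟨ht0 x hx, mem_ball_self (hr x hx)⟩
  obtain ⟨s, hs, hcov⟩ := (hF.isCompact_preimage isCompact_singleton).elim_nhds_subcover U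
    fun x hx => (hUo x hx).mem_nhds (hUx x hx)
  have h3 : ∀ᶠ t in 𝓝 t₀, ∀ y ∈ F.p ⁻¹' {t}, y ∈ ⋃ x ∈ s, U x := by
    refine hF.isClosedMap.eventually_nhds_fiber t₀ fun y hy => ?_
    exact (isOpen_biUnion fun x hx => hUo x (hs x hx)).mem_nhds (hcov hy)
  have h4 : ∀ᶠ t in 𝓝 t₀, ∀ x ∈ s, t ∈ O x := by
    rw [Filter.eventually_all_finset]
    exact fun x hx => (hO x (hs x hx)).mem_nhds (ht0 x (hs x hx))
  set K : ℝ≥0∞ := ∑ x ∈ s, ENNReal.ofReal ((M x / m) ^ 2) * volume (ball (F.triv x x).2 (r x))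
    with hKdef
  have hK : K ≠ ⊤ := by
    rw [hKdef]
    exact ENNReal.sum_ne_top.2 fun x _ =>
      ENNReal.mul_ne_top ENNReal.ofReal_ne_top measure_ball_lt_top.ne
  have hhaar := haarC2
  have hV0 : 0 < (volume (ball (e p₀) ρ)).toReal :=
    ENNReal.toReal_pos (measure_ball_pos volume _ hρ).ne' measure_ball_lt_top.ne
  have hK1 : 0 < K.toReal + 1 := by positivity
  refine ⟨Real.sqrt ((volume (ball (e p₀) ρ)).toReal / (K.toReal + 1)),
    Real.sqrt_pos.2 (by positivity), ?_⟩
  filter_upwards [h3, h4] with t ht3 ht4 b hb hsur lam hlam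
  obtain ⟨y0, -⟩ := hsur p₀
  have hbox' : ∀ x ∈ s, ∀ w ∈ ball (F.triv x x).2 (r x), (t, w) ∈ (F.triv x).target ∧
      ‖vol x (t, w)‖ ≤ M x := fun x hx w hw => hbox x (hs x hx) t (ht4 x hx) w hw
  -- the images of the boxes cover the ball
  have h5 : ball (e p₀) ρ ⊆ ⋃ x ∈ s, (fun w => e (b (pt F t x y0 w))) ''
      SS X b e (e p₀) ρ x y0 (r x) := by
    intro w' hw'
    have hwt := (hρs w' hw').1
    obtain ⟨y, hy⟩ := hsur (e.symm w')
    obtain ⟨x, hx, hyx⟩ := mem_iUnion₂.1 (ht3 y.1 y.prop)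
    refine mem_iUnion₂.2 ⟨x, hx, (F.triv x y.1).2, ?_, ?_⟩
    all_goals
      have e1 : F.triv x y.1 = (t, (F.triv x y.1).2) :=
        (F.mk_eq _ hyx.1).trans (Prod.ext y.prop rfl)
      have e2 : (t, (F.triv x y.1).2) ∈ (F.triv x).target := by
        rw [← e1]; exact (F.triv x).map_source hyx.1
      have e3 : pt F t x y0 (F.triv x y.1).2 = y := by
        refine Fib.ext ?_
        rw [pt_val e2, ← e1, (F.triv x).left_inv hyx.1]
    · refine ⟨hyx.2.2, ?_, ?_⟩
      · rw [e3, hy]; exact e.map_target hwt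
      · rw [e3, hy, e.right_inv hwt]; exact hw'
    · beta_reduce
      rw [e3, hy, e.right_inv hwt]
  have h6 : volume (ball (e p₀) ρ) ≤ ENNReal.ofReal (‖lam‖ ^ 2) * K := by
    refine (measure_mono h5).trans ((measure_biUnion_finset_le s _).trans ?_)
    rw [hKdef, Finset.mul_sum]
    refine Finset.sum_le_sum fun x hx => ?_
    have hSo : IsOpen (SS X b e (e p₀) ρ x y0 (r x)) :=
      isOpen_SS hb fun w hw => (hbox' x hx w hw).1
    have hd : ∀ w ∈ SS X b e (e p₀) ρ x y0 (r x),
        DifferentiableAt ℂ (fun w' => e (b (pt F t x y0 w'))) w ∧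
        X.vol e (e (b (pt F t x y0 w))) *
          (fderiv ℂ (fun w' => e (b (pt F t x y0 w'))) w).det = lam * vol x (t, w) :=
      fun w hw => deriv_pt hvol X hb hlam hea (hbox' x hx w hw.1).1 hw.2.1
    refine (volume_image_le (M := ‖lam‖ * (M x / m)) hSo.measurableSet
      (fun w hw => (hd w hw).1.hasFDerivAt) fun w hw => ?_).trans ?_
    · have h7 := congrArg norm (hd w hw).2
      rw [norm_mul, norm_mul] at h7
      have h8 := (hρs _ hw.2.2).2
      have h9 := (hbox' x hx w hw.1).2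
      rw [← mul_div_assoc, le_div_iff₀ hm]
      calc ‖(fderiv ℂ (fun w' => e (b (pt F t x y0 w'))) w).det‖ * m
          ≤ ‖(fderiv ℂ (fun w' => e (b (pt F t x y0 w'))) w).det‖ *
            ‖X.vol e (e (b (pt F t x y0 w)))‖ := by gcongr
        _ = ‖lam‖ * ‖vol x (t, w)‖ := by rw [← h7]; ring
        _ ≤ ‖lam‖ * M x := by gcongr
    · rw [mul_pow, ENNReal.ofReal_mul (by positivity), mul_assoc]
      gcongr
      exact fun w hw => hw.1
  have h7 : (volume (ball (e p₀) ρ)).toReal ≤ ‖lam‖ ^ 2 * K.toReal := by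
    have := ENNReal.toReal_mono (ENNReal.mul_ne_top ENNReal.ofReal_ne_top hK) h6
    rwa [ENNReal.toReal_mul, ENNReal.toReal_ofReal (by positivity)] at this
  rw [Real.sqrt_le_left (norm_nonneg _), div_le_iff₀ hK1]
  nlinarith [sq_nonneg ‖lam‖]

end Vale.Agent.P290.R2.H514
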