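import Vale.Agent.P290.R2.H596.Spec3

/-! A partial primitive of a holomorphic function on a polydisc. -/

open Set Filter Metric
open scoped Topology

namespace Vale.Agent.P290.R2.H514

open Vale.Agent.P290 Vale.Agent.P290.K Vale.Agent.P290.H580 Vale.Agent.P290.H805
open Vale.Agent.P290.R2.H596

theorem mem_poly {R : ℝ} {y : C2} : y ∈ ball (0 : C2) R ↔ ‖y.1‖ < R ∧ ‖y.2‖ < R := by
  rw [mem_ball_zero_iff, Prod.norm_def, max_lt_iff]

theorem mem_poly_smul {R : ℝ} {y : C2} (hy : y ∈ ball (0 : C2) R) {s : ℝ}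
    (hs : s ∈ uIcc (0 : ℝ) 1) : ((s : ℂ) * y.1, y.2) ∈ ball (0 : C2) R := by
  rw [mem_poly] at hy ⊢
  rw [uIcc_of_le zero_le_one] at hs
  refine ⟨?_, hy.2⟩
  rw [norm_mul, Complex.norm_real, Real.norm_of_nonneg hs.1]
  have := mul_le_of_le_one_left (norm_nonneg y.1) hs.2
  linarith [hy.1]

theorem phi_part (R₁ ε : ℝ) (_hR : 0 < R₁) (J : C2 → ℂ)
    (hJ : ∀ y ∈ ball (0 : C2) R₁, DifferentiableAt ℂ J y ∧ ‖J y - 1‖ ≤ ε) :
    ∃ P : C2 → ℂ, P 0 = 0 ∧ ∀ y ∈ ball (0 : C2) R₁, DifferentiableAt ℂ P y ∧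
      ‖P y - y.1‖ ≤ ε * R₁ ∧ fderiv ℂ P y (1, 0) = J y := by
  have hJd : DifferentiableOn ℂ J (ball (0 : C2) R₁) := fun y hy =>
    (hJ y hy).1.differentiableWithinAt
  have hcont : ∀ y ∈ ball (0 : C2) R₁,
      ContinuousOn (fun s : ℝ => J ((s : ℂ) * y.1, y.2)) (uIcc (0 : ℝ) 1) := fun y hy =>
    hJd.continuousOn.comp (f := fun s : ℝ => (((s : ℂ) * y.1, y.2) : C2))
      (Continuous.continuousOn (by fun_prop)) fun s hs => mem_poly_smul hy hs
  have hPd : DifferentiableOn ℂ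
      (fun y : C2 => y.1 * ∫ s in (0 : ℝ)..1, J ((s : ℂ) * y.1, y.2)) (ball (0 : C2) R₁) := by
    refine DifferentiableOn.mul differentiable_fst.differentiableOn ?_
    refine differentiableOn_intervalIntegral isOpen_ball
      (G := fun (y : C2) (s : ℝ) => J ((s : ℂ) * y.1, y.2)) ?_ ?_
    · exact hJd.continuousOn.comp
        (f := fun p : C2 × ℝ => (((p.2 : ℂ) * p.1.1, p.1.2) : C2))
        (Continuous.continuousOn (by fun_prop)) fun p hp => mem_poly_smul hp.1 hp.2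
    · intro s hs
      exact hJd.comp (f := fun y : C2 => (((s : ℂ) * y.1, y.2) : C2))
        (Differentiable.differentiableOn (by fun_prop)) fun y hy => mem_poly_smul hy hs
  refine ⟨fun y => y.1 * ∫ s in (0 : ℝ)..1, J ((s : ℂ) * y.1, y.2), by simp, fun y hy => ?_⟩
  have hyd := hPd.differentiableAt (isOpen_ball.mem_nhds hy)
  refine ⟨hyd, ?_, ?_⟩
  · have h1 : y.1 * (∫ s in (0 : ℝ)..1, J ((s : ℂ) * y.1, y.2)) - y.1 =
        y.1 * ∫ s in (0 : ℝ)..1, (J ((s : ℂ) * y.1, y.2) - 1) := by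
      rw [intervalIntegral.integral_sub (hcont y hy).intervalIntegrable
        intervalIntegrable_const, intervalIntegral.integral_const]
      simp only [sub_zero, one_smul]
      ring
    have h2 : ‖∫ s in (0 : ℝ)..1, (J ((s : ℂ) * y.1, y.2) - 1)‖ ≤ ε * |1 - 0| :=
      intervalIntegral.norm_integral_le_of_norm_le_const fun s hs =>
        (hJ _ (mem_poly_smul hy (uIoc_subset_uIcc hs))).2
    have h3 : ‖y.1‖ ≤ R₁ := (mem_poly.1 hy).1.le
    have hε : 0 ≤ ε := (norm_nonneg _).trans (hJ y hy).2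
    beta_reduce
    rw [h1, norm_mul]
    calc ‖y.1‖ * ‖∫ s in (0 : ℝ)..1, (J ((s : ℂ) * y.1, y.2) - 1)‖
        ≤ R₁ * (ε * |1 - 0|) := by gcongr
      _ = ε * R₁ := by norm_num; ring
  · -- the derivative in the first variable
    have hb : ‖y.2‖ < R₁ := (mem_poly.1 hy).2
    have hsl : DifferentiableOn ℂ (fun a : ℂ => J (a, y.2)) (ball (0 : ℂ) R₁) :=
      hJd.comp (f := fun a : ℂ => ((a, y.2) : C2))
        (Differentiable.differentiableOn (by fun_prop)) fun a ha => by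
          rw [mem_poly]; exact ⟨mem_ball_zero_iff.1 ha, hb⟩
    obtain ⟨g, hg0, hg⟩ := (DifferentiableOn.isExactOn_ball hsl).with_val_at 0 0
    have key : ∀ a ∈ ball (0 : ℂ) R₁,
        a * (∫ s in (0 : ℝ)..1, J ((s : ℂ) * a, y.2)) = g a := by
      intro a ha
      have hay : ((a, y.2) : C2) ∈ ball (0 : C2) R₁ := mem_poly.2 ⟨mem_ball_zero_iff.1 ha, hb⟩
      have h4 : ∀ s ∈ uIcc (0 : ℝ) 1,
          HasDerivAt (fun s : ℝ => g ((s : ℂ) * a)) (J ((s : ℂ) * a, y.2) * a) s := by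
        intro s hs
        have h5 : (s : ℂ) * a ∈ ball (0 : ℂ) R₁ :=
          mem_ball_zero_iff.2 (mem_poly.1 (mem_poly_smul hay hs)).1
        have h6 : HasDerivAt (fun w : ℂ => w * a) a (s : ℂ) := by
          simpa using (hasDerivAt_id (s : ℂ)).mul_const a
        exact (HasDerivAt.comp (s : ℂ) (hg _ h5) h6).comp_ofReal
      have h7 := intervalIntegral.integral_eq_sub_of_hasDerivAt h4
        (((hcont _ hay).mul continuousOn_const).intervalIntegrable)
      rw [intervalIntegral.integral_mul_const] at h7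
      simp only [Complex.ofReal_one, one_mul, Complex.ofReal_zero, zero_mul, hg0, sub_zero] at h7
      rw [mul_comm, h7]
    have ha : y.1 ∈ ball (0 : ℂ) R₁ := mem_ball_zero_iff.2 (mem_poly.1 hy).1
    have h8 : HasDerivAt (fun a : ℂ => a * ∫ s in (0 : ℝ)..1, J ((s : ℂ) * a, y.2)) (J y) y.1 :=
      (hg y.1 ha).congr_of_eventuallyEq
        (by filter_upwards [isOpen_ball.mem_nhds ha] with a ha using key a ha)
    have h9 : HasDerivAt (fun a : ℂ => ((a, y.2) : C2)) (1, 0) y.1 :=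
      (hasDerivAt_id y.1).prodMk (hasDerivAt_const _ _)
    have h10 : HasDerivAt (fun a : ℂ => a * ∫ s in (0 : ℝ)..1, J ((s : ℂ) * a, y.2))
        (fderiv ℂ (fun y : C2 => y.1 * ∫ s in (0 : ℝ)..1, J ((s : ℂ) * y.1, y.2)) y (1, 0)) y.1 :=
      HasFDerivAt.comp_hasDerivAt
        (l := fun y : C2 => y.1 * ∫ s in (0 : ℝ)..1, J ((s : ℂ) * y.1, y.2))
        (f := fun a : ℂ => ((a, y.2) : C2)) y.1 hyd.hasFDerivAt h9
    exact h10.unique h8

end Vale.Agent.P290.R2.H514
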