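import Vale.Agent.P290.R2.H596.Spec3
import Vale.Agent.P290.R2.H762.Const
import Vale.Agent.P290.R2.H514.Jac

/-! The existence of volume preserving local biholomorphisms from large polydiscs is an open
property of the point and of the parameter. -/

open Set Filter Metric
open scoped Topology

namespace Vale.Agent.P290.R2.H514

open Vale.Agent.P290 Vale.Agent.P290.K Vale.Agent.P290.H580 Vale.Agent.P290.H805
open Vale.Agent.P290.R2.H596

section
variable {T E : Type} [TopologicalSpace T] [TopologicalSpace E] {F : Family T E}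
  {vol : E → T × C2 → ℂ} {t : T}

theorem jac_comp {u : C2 → E} {q : C2 → C2} {z : C2} (hu : FH F t u (q z))
    (hq : DifferentiableAt ℂ q z) :
    jac F vol t (fun y => u (q y)) z = jac F vol t u (q z) * (fderiv ℂ q z).det := by
  have h1 : (fderiv ℂ (fun y => (F.triv (u (q z)) (u (q y))).2) z).det =
      (fderiv ℂ (fun y => (F.triv (u (q z)) (u y)).2) (q z)).det * (fderiv ℂ q z).det :=
    H762.det_comp (f := fun y => (F.triv (u (q z)) (u y)).2) (g := q) hu.2.2 hq
  rw [jac, jac, h1, mul_assoc]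

theorem jac_diff (hvol : RelForm F vol) {u : C2 → E} {z : C2}
    (hu : ∀ᶠ y in 𝓝 z, FH F t u y) : DifferentiableAt ℂ (jac F vol t u) z := by
  have hz : FH F t u z := hu.self_of_nhds
  have hs : ∀ᶠ y in 𝓝 z, u y ∈ (F.triv (u z)).source := hz.eventually_source (F.mem (u z))
  have h1 : jac F vol t u =ᶠ[𝓝 z] fun y => vol (u z) (t, (F.triv (u z) (u y)).2) *
      (fderiv ℂ (fun y => (F.triv (u z) (u y)).2) y).det := by
    filter_upwards [hu, hs] with y a b
    exact stJac T E F vol hvol t u y (u z) a b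
  refine DifferentiableAt.congr_of_eventuallyEq ?_ h1
  refine DifferentiableAt.mul ?_ (H762.diff_det ?_)
  · have hzt : F.p (u z) = t := hz.1.self_of_nhds
    have e1 : F.triv (u z) (u z) = (t, (F.triv (u z) (u z)).2) := by
      rw [← hzt]; exact F.mk_eq _ (F.mem (u z))
    have e2 : (t, (F.triv (u z) (u z)).2) ∈ (F.triv (u z)).target := by
      rw [← e1]; exact (F.triv (u z)).map_source (F.mem (u z))
    exact DifferentiableAt.comp (g := fun w => vol (u z) (t, w))
      (f := fun y => (F.triv (u z) (u y)).2) z (hvol (u z) t _ e2).2.1 hz.2.2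
  · filter_upwards [hu, hs] with y a b using a.diff b

end

theorem symNear (hJ : StJacClose) (hF : StFlat) (hs : StSurj) : StSymNear := by
  intro T E _ _ F vol hvol t₀ x₀ hx₀ R hR ⟨g₀, hg0, hg⟩
  obtain ⟨ε, hε, hflat⟩ := hF R (R + 1 / 4) hR (by linarith)
  have hgR : ∀ y ∈ closedBall (0 : C2) (R + 3 / 4), FH F t₀ g₀ y := fun y hy =>
    (hg y (closedBall_subset_closedBall (by linarith) hy)).1
  obtain ⟨𝒪, h𝒪, hclose⟩ := hJ T E F vol hvol t₀ g₀ (R + 1 / 2) (R + 3 / 4) (by linarith) hgR ε hε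
  have h00 : (0 : C2) ∈ closedBall (0 : C2) (R + 1) := mem_closedBall_self (by linarith)
  have h0 : FH F t₀ g₀ 0 := (hg 0 h00).1
  have hsrc0 : g₀ 0 ∈ (F.triv x₀).source := by rw [hg0]; exact F.mem x₀
  set A : C2 → C2 := fun y => (F.triv x₀ (g₀ y)).2 with hA
  have hAd : DifferentiableAt ℂ A 0 := h0.diff hsrc0
  have hjac0 : vol x₀ (t₀, A 0) * (fderiv ℂ A 0).det = 1 := by
    rw [← (hg 0 h00).2]
    exact (stJac T E F vol hvol t₀ g₀ 0 x₀ h0 hsrc0).symm
  have hdet : (fderiv ℂ A 0).det ≠ 0 := right_ne_zero_of_mul (hjac0 ▸ one_ne_zero)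
  obtain ⟨L, hL⟩ : ∃ L : C2 ≃L[ℂ] C2, (L : C2 →L[ℂ] C2) = fderiv ℂ A 0 :=
    ⟨ContinuousLinearMap.toContinuousLinearEquivOfDetNeZero (fderiv ℂ A 0) hdet,
      ContinuousLinearMap.coe_toContinuousLinearEquivOfDetNeZero _ hdet⟩
  -- a small radius
  have hsmall : ∀ᶠ z in 𝓝 (0 : C2), g₀ z ∈ (F.triv x₀).source ∧
      ‖L.symm (A z - A 0) - z‖ ≤ ‖z‖ / 16 := by
    refine (h0.eventually_source hsrc0).and ?_
    have h1 : HasFDerivAt A (L : C2 →L[ℂ] C2) 0 := by rw [hL]; exact hAd.hasFDerivAt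
    have h2 := h1.isLittleO.def
      (show 0 < 1 / (16 * (‖(L.symm : C2 →L[ℂ] C2)‖ + 1)) by positivity)
    filter_upwards [h2] with z hz
    have h3 : L.symm (A z - A 0) - z = (L.symm : C2 →L[ℂ] C2) (A z - A 0 - L (z - 0)) := by
      simp
    rw [h3]
    refine ((L.symm : C2 →L[ℂ] C2).le_opNorm _).trans ?_
    have hz' : ‖A z - A 0 - L (z - 0)‖ ≤
        1 / (16 * (‖(L.symm : C2 →L[ℂ] C2)‖ + 1)) * ‖z‖ := by simpa using hz
    have hn : 0 ≤ ‖(L.symm : C2 →L[ℂ] C2)‖ := norm_nonneg _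
    calc ‖(L.symm : C2 →L[ℂ] C2)‖ * ‖A z - A 0 - L (z - 0)‖
        ≤ (‖(L.symm : C2 →L[ℂ] C2)‖ + 1) *
          (1 / (16 * (‖(L.symm : C2 →L[ℂ] C2)‖ + 1)) * ‖z‖) := by gcongr; linarith
      _ = ‖z‖ / 16 := by field_simp
  obtain ⟨ρ₁, hρ₁, hρs⟩ := Metric.eventually_nhds_iff_ball.1 hsmall
  obtain ⟨ρ, hρ, hρ1, hρ4⟩ : ∃ ρ > (0 : ℝ), ρ < ρ₁ ∧ ρ ≤ 1 / 4 :=
    ⟨min (ρ₁ / 2) (1 / 4), by positivity, (min_le_left _ _).trans_lt (by linarith),
      min_le_right _ _⟩
  have hρs' : ∀ z ∈ closedBall (0 : C2) ρ, g₀ z ∈ (F.triv x₀).source ∧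
      ‖L.symm (A z - A 0) - z‖ ≤ ρ / 16 := fun z hz => by
    obtain ⟨a, b⟩ := hρs z (closedBall_subset_ball hρ1 hz)
    refine ⟨a, b.trans ?_⟩
    rw [mem_closedBall_zero_iff] at hz
    linarith
  -- the deformation
  have hK : Good (closedBall (0 : C2) (R + 3 / 4)) :=
    ⟨isCompact_closedBall _ _, convex_closedBall _ _⟩
  have hKn : ∀ᶠ z in 𝓝ˢ (closedBall (0 : C2) (R + 3 / 4)), FH F t₀ g₀ z := by
    have h1 : ball (0 : C2) (R + 1) ∈ 𝓝ˢ (closedBall (0 : C2) (R + 3 / 4)) :=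
      isOpen_ball.mem_nhdsSet.2 (closedBall_subset_ball (by linarith))
    filter_upwards [h1] with z hz using (hg z (ball_subset_closedBall hz)).1
  have hdef := deformation hK hKn (𝒪 ∩ {q : C2 × E | q.1 ∈ closedBall (0 : C2) ρ →
    q.2 ∈ (F.triv x₀).source ∧ ‖L.symm ((F.triv x₀ q.2).2 - A q.1)‖ < ρ / 16})
    (fun z hz => inter_mem (h𝒪 z hz) (by
      by_cases hzi : z ∈ closedBall (0 : C2) ρ
      · have hsz : g₀ z ∈ (F.triv x₀).source := (hρs' z hzi).1
        have c0 : ContinuousAt (fun y => (F.triv x₀ y).2) (g₀ z) :=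
          continuousAt_snd.comp ((F.triv x₀).continuousAt hsz)
        have c1 : ContinuousAt (fun q : C2 × E => (F.triv x₀ q.2).2) (z, g₀ z) :=
          ContinuousAt.comp (g := fun y => (F.triv x₀ y).2) (f := Prod.snd) c0
            continuousAt_snd
        have c2 : ContinuousAt (fun q : C2 × E => A q.1) (z, g₀ z) :=
          ContinuousAt.comp (g := A) (f := Prod.fst)
            (ContinuousAt.comp (g := fun y => (F.triv x₀ y).2) (f := g₀) c0 (hgR z hz).2.1)
            continuousAt_fst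
        have c3 : ContinuousAt (fun q : C2 × E => ‖L.symm ((F.triv x₀ q.2).2 - A q.1)‖)
            (z, g₀ z) :=
          (L.symm.continuous.continuousAt.comp (c1.sub c2)).norm
        have c4 : ∀ᶠ q in 𝓝 (z, g₀ z), ‖L.symm ((F.triv x₀ q.2).2 - A q.1)‖ < ρ / 16 :=
          c3.eventually_lt_const (by
            simp only [hA, sub_self, map_zero, norm_zero]; positivity)
        have c5 : ∀ᶠ q in 𝓝 (z, g₀ z), q.2 ∈ (F.triv x₀).source :=
          continuousAt_snd.eventually ((F.triv x₀).open_source.mem_nhds hsz)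
        filter_upwards [c4, c5] with q a4 a5 _ using ⟨a5, a4⟩
      · have c6 : ∀ᶠ q in 𝓝 (z, g₀ z), q.1 ∉ closedBall (0 : C2) ρ :=
          (continuousAt_fst (p := (z, g₀ z))).eventually
            ((isClosed_closedBall (x := (0 : C2)) (ε := ρ)).isOpen_compl.mem_nhds
              (show z ∈ (closedBall (0 : C2) ρ)ᶜ from hzi))
        filter_upwards [c6] with q hq hq' using absurd hq' hq))
  -- points near `x₀`
  have hp : ContinuousAt F.p x₀ := by
    have h1 : ContinuousAt (fun y => (F.triv x₀ y).1) x₀ :=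
      continuousAt_fst.comp ((F.triv x₀).continuousAt (F.mem x₀))
    refine h1.congr ?_
    filter_upwards [(F.triv x₀).open_source.mem_nhds (F.mem x₀)] with y hy using F.fst x₀ y hy
  have hA0 : A 0 = (F.triv x₀ x₀).2 := by rw [hA]; simp only [hg0]
  have h2 : ∀ᶠ x in 𝓝 x₀, x ∈ (F.triv x₀).source ∧
      ‖L.symm ((F.triv x₀ x).2 - A 0)‖ < ρ / 4 := by
    refine ((F.triv x₀).open_source.eventually_mem (F.mem x₀)).and ?_
    have c0 : ContinuousAt (fun y => (F.triv x₀ y).2) x₀ :=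
      continuousAt_snd.comp ((F.triv x₀).continuousAt (F.mem x₀))
    have c3 : ContinuousAt (fun x => ‖L.symm ((F.triv x₀ x).2 - A 0)‖) x₀ :=
      (L.symm.continuous.continuousAt.comp (c0.sub continuousAt_const)).norm
    exact c3.eventually_lt_const (by
      simp only [hA0, sub_self, map_zero, norm_zero]; positivity)
  rw [← hx₀] at hdef hclose
  filter_upwards [hp.eventually hdef, hp.eventually hclose, h2] with x ⟨u, hu, huO⟩ hcl ⟨hxs, hxn⟩
  have hKu : ∀ z ∈ closedBall (0 : C2) (R + 3 / 4), FH F (F.p x) u z := fun z hz =>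
    hu.self_of_nhdsSet z hz
  have hsub : closedBall (0 : C2) ρ ⊆ closedBall (0 : C2) (R + 3 / 4) :=
    closedBall_subset_closedBall (by linarith)
  -- a point with value `x`
  obtain ⟨z₁, hz₁, hφ⟩ := hs C2 (fun z => L.symm ((F.triv x₀ (u z)).2 - A 0)) ρ hρ
    (fun z hz => by
      have hz' := ball_subset_closedBall hz
      have h3 := (huO z (hsub hz')).2 hz'
      exact L.symm.differentiableAt.comp z
        (((hKu z (hsub hz')).diff h3.1).sub (differentiableAt_const _)))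
    (fun z hz => by
      have hz' := ball_subset_closedBall hz
      have h3 := ((huO z (hsub hz')).2 hz').2
      have h4 := (hρs' z hz').2
      have h5 : L.symm ((F.triv x₀ (u z)).2 - A 0) - z =
          L.symm ((F.triv x₀ (u z)).2 - A z) + (L.symm (A z - A 0) - z) := by
        simp only [map_sub]; abel
      rw [h5]
      refine (norm_add_le _ _).trans ?_
      linarith)
    (L.symm ((F.triv x₀ x).2 - A 0)) hxn.le
  have hz₁c := ball_subset_closedBall hz₁
  have hz₁s := ((huO z₁ (hsub hz₁c)).2 hz₁c).1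
  have hux : u z₁ = x := by
    have h3 : (F.triv x₀ (u z₁)).2 = (F.triv x₀ x).2 := by
      have := L.symm.injective hφ
      exact sub_left_injective this
    refine (F.triv x₀).injOn hz₁s hxs (Prod.ext ?_ h3)
    rw [F.fst x₀ _ hz₁s, F.fst x₀ _ hxs]
    exact (hKu z₁ (hsub hz₁c)).1.self_of_nhds
  have hball : ∀ y ∈ ball (0 : C2) (R + 1 / 4), z₁ + y ∈ closedBall (0 : C2) (R + 1 / 2) := by
    intro y hy
    rw [mem_closedBall_zero_iff]
    rw [mem_ball_zero_iff] at hy hz₁
    have := norm_add_le z₁ y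
    linarith
  have hsub2 : closedBall (0 : C2) (R + 1 / 2) ⊆ closedBall (0 : C2) (R + 3 / 4) :=
    closedBall_subset_closedBall (by linarith)
  obtain ⟨ψ, hψ0, hψ⟩ := hflat (fun y => jac F vol (F.p x) u (z₁ + y)) (fun y hy => by
    refine ⟨?_, ?_⟩
    · have h3 : DifferentiableAt ℂ (jac F vol (F.p x) u) (z₁ + y) :=
        jac_diff hvol (hu.filter_mono (nhds_le_nhdsSet (hsub2 (hball y hy))))
      exact DifferentiableAt.comp (g := jac F vol (F.p x) u) (f := fun y => z₁ + y) y h3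
        ((differentiableAt_const _).add differentiableAt_id)
    · have h3 := hcl u hKu (fun z hz => (huO z hz).1) (z₁ + y) (hball y hy)
      rw [hx₀, (hg (z₁ + y) (closedBall_subset_closedBall (by linarith) (hball y hy))).2] at h3
      exact h3.le)
  refine ⟨fun y => u (z₁ + ψ y), by simp only [hψ0, add_zero, hux], fun y hy => ?_⟩
  obtain ⟨h3, h4, h5⟩ := hψ y hy
  have h6 : FH F (F.p x) u (z₁ + ψ y) := hKu _ (hsub2 (hball _ h4))
  have h7 : DifferentiableAt ℂ (fun y => z₁ + ψ y) y := (differentiableAt_const _).add h3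
  refine ⟨FH.comp (q := fun y => z₁ + ψ y) h6 h7, ?_⟩
  rw [jac_comp (q := fun y => z₁ + ψ y) h6 h7]
  have h8 : fderiv ℂ (fun y => z₁ + ψ y) y = fderiv ℂ ψ y := fderiv_const_add z₁
  rw [h8]
  exact h5

end Vale.Agent.P290.R2.H514
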